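import Vale.Agent.P310.Graph
import Vale.Agent.P310.H593.WL

/-!
# G1: the generic Duplicator lemma on the graph of a parity system
-/

namespace Vale.Agent.P310

variable {V E Sl : Type}

namespace SlotSys

variable (S : SlotSys V E Sl)

open Classical in
/-- the shift of a base vertex by an assignment of the variables -/
noncomputable def bshift (a : V → ZMod 2) : BaseV V E Sl → BaseV V E Sl
  | .inl (v, s) => .inl (v, s + a v)
  | .inr (e, α) => .inr (e, fun t => if t ∈ S.act e then α t + a (S.sv e t) else α t)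

theorem item_bshift (a : V → ZMod 2) (u : BaseV V E Sl) : item (S.bshift a u) = item u := by
  rcases u with ⟨v, s⟩ | ⟨e, α⟩ <;> rfl

private theorem add_add_self (x y : ZMod 2) : x + y + y = x := by
  rw [add_assoc, CharTwo.add_self_eq_zero, add_zero]

theorem bshift_bshift (a : V → ZMod 2) (u : BaseV V E Sl) : S.bshift a (S.bshift a u) = u := by
  rcases u with ⟨v, s⟩ | ⟨e, α⟩
  · simp [bshift, add_add_self]
  · simp only [bshift]
    congr 2
    funext t
    split_ifs <;> simp [add_add_self]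

theorem bshift_inj (a : V → ZMod 2) : Function.Injective (S.bshift a) :=
  Function.LeftInverse.injective (S.bshift_bshift a)

/-- the shift only depends on the assignment on the variables of the item -/
theorem bshift_congr {a a' : V → ZMod 2} (u : BaseV V E Sl)
    (h : ∀ v ∈ S.ivars (item u), a' v = a v) : S.bshift a' u = S.bshift a u := by
  rcases u with ⟨v, s⟩ | ⟨e, α⟩
  · have := h v (by simp [item, ivars])
    simp [bshift, this]
  · simp only [bshift]
    congr 2
    funext t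
    split_ifs with ht
    · rw [h]
      classical
      simp only [item, ivars, vars]
      exact Finset.mem_image_of_mem _ ht
    · rfl

theorem sum_vars {M : Type} [AddCommMonoid M] (f : V → M) (e : E) :
    ∑ v ∈ S.vars e, f v = ∑ t ∈ S.act e, f (S.sv e t) := by
  classical
  unfold vars
  rw [Finset.sum_image]
  exact fun x hx y hy h => S.inj e hx hy h

theorem ok_shift {pG pH : E → ZMod 2} {a : V → ZMod 2} {e : E}
    (h : ∑ v ∈ S.vars e, a v = pG e + pH e) (α : Sl → ZMod 2) :
    open Classical in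
    S.Ok pH e (fun t => if t ∈ S.act e then α t + a (S.sv e t) else α t) ↔ S.Ok pG e α := by
  classical
  unfold Ok
  rw [Finset.sum_congr rfl (g := fun t => α t + a (S.sv e t)) (fun t ht => by simp [ht]),
    Finset.sum_add_distrib, ← S.sum_vars a e, h]
  constructor
  · intro h1
    have h2 : ∑ t ∈ S.act e, α t + pG e + pH e = pH e := by rw [add_assoc, h1]
    have h3 : ∑ t ∈ S.act e, α t + pG e = 0 := by
      have := congrArg (· + pH e) h2
      simpa [add_add_self, CharTwo.add_self_eq_zero] using this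
    have := congrArg (· + pG e) h3
    simpa [add_add_self] using this
  · intro h1
    rw [h1, ← add_assoc, CharTwo.add_self_eq_zero, zero_add]

theorem live_shift {pG pH : E → ZMod 2} {a : V → ZMod 2} {u : BaseV V E Sl}
    (h : ∀ e, Sum.inr e = (item u : V ⊕ E) → ∑ v ∈ S.vars e, a v = pG e + pH e) :
    S.Live pH (S.bshift a u) ↔ S.Live pG u := by
  rcases u with ⟨v, s⟩ | ⟨e, α⟩
  · exact Iff.rfl
  · exact S.ok_shift (h e rfl) α

theorem inc_shift {pG pH : E → ZMod 2} {a : V → ZMod 2} {v : V} {s : ZMod 2} {e : E}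
    (h : ∑ v ∈ S.vars e, a v = pG e + pH e) (α : Sl → ZMod 2) :
    open Classical in
    S.Inc pH v (s + a v) e (fun t => if t ∈ S.act e then α t + a (S.sv e t) else α t) ↔
      S.Inc pG v s e α := by
  classical
  unfold Inc
  rw [S.ok_shift h]
  refine and_congr Iff.rfl (exists_congr fun t => and_congr_right fun ht => and_congr_right fun hv => ?_)
  simp only [if_pos ht, hv]
  exact add_left_inj _

theorem baseAdj_shift {pG pH : E → ZMod 2} {a : V → ZMod 2} {u w : BaseV V E Sl}
    (hu : ∀ e, Sum.inr e = (item u : V ⊕ E) → ∑ v ∈ S.vars e, a v = pG e + pH e)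
    (hw : ∀ e, Sum.inr e = (item w : V ⊕ E) → ∑ v ∈ S.vars e, a v = pG e + pH e) :
    S.BaseAdj pH (S.bshift a u) (S.bshift a w) ↔ S.BaseAdj pG u w := by
  rcases u with ⟨v, s⟩ | ⟨e, α⟩ <;> rcases w with ⟨v', s'⟩ | ⟨e', α'⟩
  · exact Iff.rfl
  · exact S.inc_shift (hw e' rfl) α'
  · exact S.inc_shift (hu e rfl) α
  · exact Iff.rfl

theorem adj_shift {pG pH : E → ZMod 2} {cnt : V ⊕ E → ℕ} {L : ℕ} {a : V → ZMod 2}
    {x y : CfiV V E Sl L}
    (hx : ∀ e, Sum.inr e = (item x.1 : V ⊕ E) → ∑ v ∈ S.vars e, a v = pG e + pH e)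
    (hy : ∀ e, Sum.inr e = (item y.1 : V ⊕ E) → ∑ v ∈ S.vars e, a v = pG e + pH e) :
    (S.graph pH cnt L).Adj (S.bshift a x.1, x.2) (S.bshift a y.1, y.2) ↔
      (S.graph pG cnt L).Adj x y := by
  simp only [graph, LeafAdj, S.item_bshift, (S.bshift_inj a).eq_iff, S.baseAdj_shift hx hy,
    S.live_shift hx]

/-- **The generic Duplicator lemma.** -/
theorem wlEquiv_of_good [DecidableEq (V ⊕ E)] (k : ℕ) (pG pH : E → ZMod 2) (cnt : V ⊕ E → ℕ)
    (L : ℕ) [Fintype (CfiV V E Sl L)]
    (Good : Finset (V ⊕ E) → (V → ZMod 2) → Prop)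
    (mono : ∀ Y Y' a, Good Y a → Y' ⊆ Y → Good Y' a)
    (par : ∀ Y a e, Good Y a → Sum.inr e ∈ Y → ∑ v ∈ S.vars e, a v = pG e + pH e)
    (empty : ∃ a, Good ∅ a)
    (forth : ∀ Y a, Y.card ≤ k → Good Y a → ∀ x,
      ∃ a', (∀ y ∈ Y, ∀ v ∈ S.ivars y, a' v = a v) ∧ Good (insert x Y) a') :
    WLEquiv k (S.graph pG cnt L) (S.graph pH cnt L) := by
  refine wlEquiv_of_family
    (fun P => ∃ Y a, Good Y a ∧ ∀ p ∈ P, item p.1.1 ∈ Y ∧ p.2 = (S.bshift a p.1.1, p.1.2))
    ?_ ?_ ?_ ?_
  · rintro P Q ⟨Y, a, h, hP⟩ hQ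
    exact ⟨Y, a, h, fun p hp => hP p (hQ hp)⟩
  · obtain ⟨a, ha⟩ := empty
    exact ⟨∅, a, ha, fun p hp => absurd hp (Set.notMem_empty p)⟩
  · rintro P ⟨Y, a, h, hP⟩ p hp q hq
    obtain ⟨hp1, hp2⟩ := hP p hp
    obtain ⟨hq1, hq2⟩ := hP q hq
    constructor
    · rw [hp2, hq2]
      constructor
      · intro h
        rw [h]
      · intro h
        rw [Prod.mk.injEq] at h
        exact Prod.ext (S.bshift_inj a h.1) h.2
    · rw [hp2, hq2]
      refine (S.adj_shift (fun e he => ?_) (fun e he => ?_)).symm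
      · exact par Y a e h (he ▸ hp1)
      · exact par Y a e h (he ▸ hq1)
  · rintro m hm x ⟨Y, a, h, hx⟩
    set Y₀ : Finset (V ⊕ E) := Finset.univ.image fun i => item (x i).1.1 with hY₀
    have hsub : Y₀ ⊆ Y := by
      intro z hz
      rw [hY₀, Finset.mem_image] at hz
      obtain ⟨i, _, rfl⟩ := hz
      exact (hx _ ⟨i, rfl⟩).1
    have hcard : Y₀.card ≤ k := by
      refine le_trans Finset.card_image_le ?_
      simpa using hm
    choose f hf1 hf2 using forth Y₀ a hcard (mono _ _ _ h hsub)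
    have hinv : Function.Involutive (fun u : CfiV V E Sl L =>
        ((S.bshift (f (item u.1)) u.1, u.2) : CfiV V E Sl L)) := by
      rintro ⟨u, l⟩
      simp only [S.item_bshift, S.bshift_bshift]
    refine ⟨hinv.toPerm, fun y => ⟨insert (item y.1) Y₀, f (item y.1), hf2 _, ?_⟩⟩
    intro p hp
    rcases hp with rfl | ⟨i, rfl⟩
    · exact ⟨Finset.mem_insert_self _ _, rfl⟩
    · have hi : item (x i).1.1 ∈ Y₀ := by
        rw [hY₀]
        exact Finset.mem_image_of_mem _ (Finset.mem_univ i)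
      refine ⟨Finset.mem_insert_of_mem hi, ?_⟩
      rw [(hx _ ⟨i, rfl⟩).2]
      refine Prod.ext ?_ rfl
      exact (S.bshift_congr _ (hf1 _ _ hi)).symm

end SlotSys

end Vale.Agent.P310
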