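import Vale.Agent.P310.WLDefs
import Vale.Agent.P310.H781.Block

/-!
# P310, package W7a: Mathlib's stack machines as blocks of flat machines
-/

namespace Vale.Agent.P310

open Turing Function

namespace TM2Block

/-- the parameters of the translation -/
structure Par (K : Type) (Γ : K → Type) (Λ σ : Type) where
  /-- number of internal states -/
  ns : ℕ
  /-- numbering of the internal states -/
  es : σ ≃ Fin ns
  /-- numbering of the stacks -/
  kn : K → ℕ
  /-- the stack read when no stack has to be read -/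
  k₀ : K
  /-- the relevant symbols -/
  L : ∀ k, List (Γ k)
  /-- bound for the read codes -/
  M : ℕ
  hM : ∀ k, (L k).length + 1 ≤ M
  /-- entry states of the labels -/
  st : Λ → ℕ
  /-- exit state -/
  e : ℕ

variable {K : Type} {Γ : K → Type} {Λ σ : Type}

/-- the number of rows of a statement -/
def size (ns : ℕ) : TM2.Stmt Γ Λ σ → ℕ
  | .push _ _ q => ns + size ns q
  | .peek _ _ q => ns + size ns q
  | .pop _ _ q => ns + size ns q
  | .load _ q => ns + size ns q
  | .branch _ q₁ q₂ => ns + (size ns q₁ + size ns q₂)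
  | .goto _ => ns
  | .halt => ns

/-- All pushed symbols of a statement are in the lists. -/
def Good (L : ∀ k, List (Γ k)) : TM2.Stmt Γ Λ σ → Prop
  | .push k f q => (∀ v, f v ∈ L k) ∧ Good L q
  | .peek _ _ q => Good L q
  | .pop _ _ q => Good L q
  | .load _ q => Good L q
  | .branch _ q₁ q₂ => Good L q₁ ∧ Good L q₂
  | .goto _ => True
  | .halt => True

/-- the depth of a statement -/
def depth : TM2.Stmt Γ Λ σ → ℕ
  | .push _ _ q => depth q + 1
  | .peek _ _ q => depth q + 1
  | .pop _ _ q => depth q + 1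
  | .load _ q => depth q + 1
  | .branch _ q₁ q₂ => max (depth q₁) (depth q₂) + 1
  | .goto _ => 1
  | .halt => 1

namespace Par

variable (P : Par K Γ Λ σ)

open Classical in
/-- the number of a symbol -/
noncomputable def num (k : K) (x : Γ k) : ℕ := (P.L k).idxOf x

/-- the symbol (if any) with a given read code -/
def dec (k : K) : ℕ → Option (Γ k)
  | 0 => none
  | g + 1 => (P.L k)[g]?

/-- a row -/
def row (k : K) (a : ℕ → FAct) : ℕ × List FAct := (P.kn k, (List.range P.M).map a)

/-- the block of a statement, at offset `o` -/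
noncomputable def code : TM2.Stmt Γ Λ σ → ℕ → FTable
  | .push k f q, o => List.ofFn (fun i : Fin P.ns => P.row k fun _ =>
      (1, P.kn k, P.num k (f (P.es.symm i)), o + P.ns + i)) ++ code q (o + P.ns)
  | .peek k f q, o => List.ofFn (fun i : Fin P.ns => P.row k fun g =>
      (0, 0, 0, o + P.ns + P.es (f (P.es.symm i) (P.dec k g)))) ++ code q (o + P.ns)
  | .pop k f q, o => List.ofFn (fun i : Fin P.ns => P.row k fun g =>
      (2, P.kn k, 0, o + P.ns + P.es (f (P.es.symm i) (P.dec k g)))) ++ code q (o + P.ns)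
  | .load f q, o => List.ofFn (fun i : Fin P.ns => P.row P.k₀ fun _ =>
      (0, 0, 0, o + P.ns + P.es (f (P.es.symm i)))) ++ code q (o + P.ns)
  | .branch p q₁ q₂, o => List.ofFn (fun i : Fin P.ns => P.row P.k₀ fun _ =>
      (0, 0, 0, if p (P.es.symm i) then o + P.ns + i else o + P.ns + size P.ns q₁ + i)) ++
      (code q₁ (o + P.ns) ++ code q₂ (o + P.ns + size P.ns q₁))
  | .goto f, _ => List.ofFn (fun i : Fin P.ns => P.row P.k₀ fun _ =>
      (0, 0, 0, P.st (f (P.es.symm i)) + i))
  | .halt, _ => List.ofFn (fun _ : Fin P.ns => P.row P.k₀ fun _ => (0, 0, 0, P.e))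

theorem length_code (q : TM2.Stmt Γ Λ σ) : ∀ o, (P.code q o).length = size P.ns q := by
  induction q with
  | push k f q ih => intro o; simp [code, size, ih]
  | peek k f q ih => intro o; simp [code, size, ih]
  | pop k f q ih => intro o; simp [code, size, ih]
  | load f q ih => intro o; simp [code, size, ih]
  | branch p q₁ q₂ ih₁ ih₂ => intro o; simp [code, size, ih₁, ih₂]
  | goto f => intro o; simp [code, size]
  | halt => intro o; simp [code, size]

/-- the stacks of the flat machine represent the stacks of the machine; `S₀` are the stacks of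
the flat machine which are not used -/
structure Rep (S₀ : ℕ → List ℕ) (stk : ∀ k, List (Γ k)) (S : ℕ → List ℕ) : Prop where
  eq : ∀ k, S (P.kn k) = (stk k).map (P.num k)
  mem : ∀ k, ∀ x ∈ stk k, x ∈ P.L k
  off : ∀ j, (∀ k, P.kn k ≠ j) → S j = S₀ j

/-- the state of the flat machine between two steps of the machine -/
def state (l : Option Λ) (v : σ) : ℕ :=
  match l with
  | some l => P.st l + P.es v
  | none => P.e

theorem num_lt {k : K} {x : Γ k} (h : x ∈ P.L k) : P.num k x < (P.L k).length := by
  classical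
  unfold num
  exact List.idxOf_lt_length_of_mem h

theorem dec_num {k : K} {x : Γ k} (h : x ∈ P.L k) : P.dec k (P.num k x + 1) = some x := by
  classical
  have h1 := P.num_lt h
  simp only [dec]
  rw [List.getElem?_eq_getElem h1]
  congr 1
  exact List.getElem_idxOf h1

theorem num_inj {k : K} {x y : Γ k} (hx : x ∈ P.L k) (h : P.num k x = P.num k y) : x = y := by
  classical
  unfold num at h
  exact (List.idxOf_inj hx).1 h

theorem Rep.dec {P : Par K Γ Λ σ} {S₀ S : ℕ → List ℕ} {stk : ∀ k, List (Γ k)}
    (h : P.Rep S₀ stk S) (k : K) : P.dec k (rcode (S (P.kn k))) = (stk k).head? := by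
  rw [h.eq]
  rcases hk : stk k with _ | ⟨x, l⟩
  · rfl
  · exact P.dec_num (h.mem k x (by rw [hk]; exact List.mem_cons_self))

theorem Rep.rcode_lt {P : Par K Γ Λ σ} {S₀ S : ℕ → List ℕ} {stk : ∀ k, List (Γ k)}
    (h : P.Rep S₀ stk S) (k : K) : rcode (S (P.kn k)) < P.M := by
  rw [h.eq]
  rcases hk : stk k with _ | ⟨x, l⟩
  · exact lt_of_lt_of_le (Nat.succ_pos _) (P.hM k)
  · have h1 := P.num_lt (h.mem k x (by rw [hk]; exact List.mem_cons_self))
    have h2 := P.hM k
    simp only [List.map_cons, rcode]
    omega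

theorem Rep.update [DecidableEq K] {P : Par K Γ Λ σ} (hkn : Injective P.kn) {S₀ S : ℕ → List ℕ}
    {stk : ∀ k, List (Γ k)} (h : P.Rep S₀ stk S) {k : K} {l : List (Γ k)}
    (hl : ∀ x ∈ l, x ∈ P.L k) :
    P.Rep S₀ (Function.update stk k l) (Function.update S (P.kn k) (l.map (P.num k))) := by
  refine ⟨fun k' => ?_, fun k' x hx => ?_, fun j hj => ?_⟩
  · rcases eq_or_ne k' k with rfl | hk
    · simp
    · rw [update_of_ne (fun h => hk (hkn h)), update_of_ne hk, h.eq]
  · rcases eq_or_ne k' k with rfl | hk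
    · rw [update_self] at hx
      exact hl x hx
    · rw [update_of_ne hk] at hx
      exact h.mem k' x hx
  · rw [update_of_ne (fun h => hj k h.symm), h.off j hj]

/-- one step of the flat machine in a state of a block -/
theorem step_block {t : FTable} {o : ℕ} {b : FTable} {k : K} {f : Fin P.ns → ℕ → FAct}
    (h : t.Has o (List.ofFn (fun i : Fin P.ns => P.row k (f i)) ++ b)) (i : Fin P.ns)
    {S : ℕ → List ℕ} (hS : rcode (S (P.kn k)) < P.M) :
    t.step (o + i, S) = ((f i (rcode (S (P.kn k)))).2.2.2, (f i (rcode (S (P.kn k)))).upd S) := by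
  have h1 := h.left i (by simp)
  have h2 : (List.ofFn (fun i : Fin P.ns => P.row k (f i))).getD i (0, []) = P.row k (f i) := by
    rw [List.getD_eq_getElem _ _ (by simp)]
    simp
  rw [h2] at h1
  rw [t.step_row h1]
  have h3 : ((P.row k (f i)).2.getD (rcode (S (P.row k (f i)).1)) (0, 0, 0, o + ↑i)) =
      f i (rcode (S (P.kn k))) := by
    simp only [row]
    rw [List.getD_eq_getElem _ _ (by simpa using hS)]
    simp
  rw [h3]

theorem sim_stmt [DecidableEq K] (hkn : Injective P.kn) {t : FTable} (q : TM2.Stmt Γ Λ σ)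
    (hq : Good P.L q) : ∀ (o : ℕ), t.Has o (P.code q o) → ∀ (v : σ) (stk : ∀ k, List (Γ k))
    (S₀ S : ℕ → List ℕ), P.Rep S₀ stk S →
    ∃ m ≤ depth q, ∃ S', t.step^[m] (o + P.es v, S) =
      (P.state (TM2.stepAux q v stk).l (TM2.stepAux q v stk).var, S') ∧
        P.Rep S₀ (TM2.stepAux q v stk).stk S' := by
  induction q with
  | push k f q ih =>
    intro o h v stk S₀ S hS
    have h1 := P.step_block h (P.es v) (hS.rcode_lt k)
    simp only [Equiv.symm_apply_apply, FAct.upd_push] at h1
    have h2 := hS.update hkn (k := k) (l := f v :: stk k) (by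
      intro x hx
      rcases List.mem_cons.1 hx with rfl | hx
      · exact hq.1 v
      · exact hS.mem k x hx)
    rw [List.map_cons, ← hS.eq k] at h2
    obtain ⟨m, hm, S', h3, h4⟩ := ih hq.2 (o + P.ns) (h.right' (by simp)) v _ _ _ h2
    refine ⟨m + 1, Nat.succ_le_succ hm, S', ?_, h4⟩
    rw [iterate_succ_apply, h1, h3]
    rfl
  | peek k f q ih =>
    intro o h v stk S₀ S hS
    have h1 := P.step_block h (P.es v) (hS.rcode_lt k)
    simp only [Equiv.symm_apply_apply, FAct.upd_nop, hS.dec] at h1
    obtain ⟨m, hm, S', h3, h4⟩ := ih hq (o + P.ns) (h.right' (by simp)) (f v (stk k).head?)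
      _ _ _ hS
    refine ⟨m + 1, Nat.succ_le_succ hm, S', ?_, h4⟩
    rw [iterate_succ_apply, h1, h3]
    rfl
  | pop k f q ih =>
    intro o h v stk S₀ S hS
    have h1 := P.step_block h (P.es v) (hS.rcode_lt k)
    simp only [Equiv.symm_apply_apply, FAct.upd_pop, hS.dec] at h1
    have h2 := hS.update hkn (k := k) (l := (stk k).tail) (fun x hx =>
      hS.mem k x (List.mem_of_mem_tail hx))
    rw [List.map_tail, ← hS.eq k] at h2
    obtain ⟨m, hm, S', h3, h4⟩ := ih hq (o + P.ns) (h.right' (by simp)) (f v (stk k).head?)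
      _ _ _ h2
    refine ⟨m + 1, Nat.succ_le_succ hm, S', ?_, h4⟩
    rw [iterate_succ_apply, h1, h3]
    rfl
  | load f q ih =>
    intro o h v stk S₀ S hS
    have h1 := P.step_block h (P.es v) (hS.rcode_lt P.k₀)
    simp only [Equiv.symm_apply_apply, FAct.upd_nop] at h1
    obtain ⟨m, hm, S', h3, h4⟩ := ih hq (o + P.ns) (h.right' (by simp)) (f v) _ _ _ hS
    refine ⟨m + 1, Nat.succ_le_succ hm, S', ?_, h4⟩
    rw [iterate_succ_apply, h1, h3]
    rfl
  | branch p q₁ q₂ ih₁ ih₂ =>
    intro o h v stk S₀ S hS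
    have h1 := P.step_block h (P.es v) (hS.rcode_lt P.k₀)
    simp only [Equiv.symm_apply_apply, FAct.upd_nop] at h1
    have h5 : t.Has (o + P.ns) (P.code q₁ (o + P.ns) ++ P.code q₂ (o + P.ns + size P.ns q₁)) :=
      h.right' (by simp)
    rcases hp : p v with _ | _
    · rw [hp] at h1
      obtain ⟨m, hm, S', h3, h4⟩ := ih₂ hq.2 (o + P.ns + size P.ns q₁)
        (h5.right' (P.length_code _ _)) v _ _ _ hS
      refine ⟨m + 1, Nat.succ_le_succ (hm.trans (le_max_right _ _)), S', ?_, ?_⟩
      · rw [iterate_succ_apply, h1]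
        simp only [Bool.false_eq_true, if_false]
        rw [h3]
        simp [TM2.stepAux, hp]
      · simpa [TM2.stepAux, hp] using h4
    · rw [hp] at h1
      obtain ⟨m, hm, S', h3, h4⟩ := ih₁ hq.1 (o + P.ns) h5.left v _ _ _ hS
      refine ⟨m + 1, Nat.succ_le_succ (hm.trans (le_max_left _ _)), S', ?_, ?_⟩
      · rw [iterate_succ_apply, h1]
        simp only [if_true]
        rw [h3]
        simp [TM2.stepAux, hp]
      · simpa [TM2.stepAux, hp] using h4
  | goto f =>
    intro o h v stk S₀ S hS
    rw [code, ← List.append_nil (List.ofFn _)] at h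
    have h1 := P.step_block h (P.es v) (hS.rcode_lt P.k₀)
    simp only [Equiv.symm_apply_apply, FAct.upd_nop] at h1
    exact ⟨1, le_rfl, S, by rw [iterate_one, h1]; rfl, hS⟩
  | halt =>
    intro o h v stk S₀ S hS
    rw [code, ← List.append_nil (List.ofFn _)] at h
    have h1 := P.step_block (f := fun _ _ => (0, 0, 0, P.e)) h (P.es v) (hS.rcode_lt P.k₀)
    simp only [FAct.upd_nop] at h1
    exact ⟨1, le_rfl, S, by rw [iterate_one, h1]; rfl, hS⟩

end Par

/-! ### All labels -/

/-- the concatenation of the blocks of the labels -/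
noncomputable def lcode (P : Par K Γ Λ σ) (m : Λ → TM2.Stmt Γ Λ σ) : List Λ → ℕ → FTable
  | [], _ => []
  | l :: ls, o => P.code (m l) o ++ lcode P m ls (o + size P.ns (m l))

open Classical in
/-- the entry states of the labels -/
noncomputable def lst (ns : ℕ) (m : Λ → TM2.Stmt Γ Λ σ) : List Λ → ℕ → Λ → ℕ
  | [], _, _ => 0
  | l :: ls, o, l' => if l' = l then o else lst ns m ls (o + size ns (m l)) l'

theorem length_lcode (P : Par K Γ Λ σ) (m : Λ → TM2.Stmt Γ Λ σ) (ls : List Λ) :
    ∀ o, (lcode P m ls o).length = (ls.map fun l => size P.ns (m l)).sum := by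
  induction ls with
  | nil => intro o; rfl
  | cons l ls ih => intro o; simp [lcode, P.length_code, ih]

theorem has_lst (P : Par K Γ Λ σ) (m : Λ → TM2.Stmt Γ Λ σ) (t : FTable) (ls : List Λ) :
    ∀ o, t.Has o (lcode P m ls o) → ∀ l ∈ ls,
      t.Has (lst P.ns m ls o l) (P.code (m l) (lst P.ns m ls o l)) := by
  classical
  induction ls with
  | nil => intro o _ l hl; simp at hl
  | cons l ls ih =>
    intro o h l' hl
    by_cases h1 : l' = l
    · subst h1
      simp only [lst, if_true]
      exact h.left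
    · simp only [lst, h1, if_false]
      exact ih _ (h.right' (P.length_code _ _)) l' ((List.mem_cons.1 hl).resolve_left h1)

theorem Good.mono {L L' : ∀ k, List (Γ k)} (h : ∀ k, ∀ x ∈ L k, x ∈ L' k)
    (q : TM2.Stmt Γ Λ σ) (hq : Good L q) : Good L' q := by
  induction q with
  | push k f q ih => exact ⟨fun v => h _ _ (hq.1 v), ih hq.2⟩
  | peek k f q ih => exact ih hq
  | pop k f q ih => exact ih hq
  | load f q ih => exact ih hq
  | branch p q₁ q₂ ih₁ ih₂ => exact ⟨ih₁ hq.1, ih₂ hq.2⟩
  | goto f => trivial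
  | halt => trivial

theorem exists_good_stmt [Finite σ] (q : TM2.Stmt Γ Λ σ) :
    ∃ L : ∀ k, List (Γ k), Good L q := by
  classical
  have := Fintype.ofFinite σ
  induction q with
  | push k f q ih =>
    obtain ⟨L, hL⟩ := ih
    refine ⟨fun k' => if h : k' = k then h ▸ (Finset.univ.toList.map f) ++ L k' else L k',
      fun v => ?_, Good.mono (fun k' x hx => ?_) q hL⟩
    · simp only [dite_true]
      exact List.mem_append_left _ (List.mem_map.2 ⟨v, Finset.mem_toList.2 (Finset.mem_univ v), rfl⟩)
    · by_cases h : k' = k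
      · subst h
        simp only [dite_true]
        exact List.mem_append_right _ hx
      · simp only [h, dite_false]
        exact hx
  | peek k f q ih => exact ih
  | pop k f q ih => exact ih
  | load f q ih => exact ih
  | branch p q₁ q₂ ih₁ ih₂ =>
    obtain ⟨L₁, h₁⟩ := ih₁
    obtain ⟨L₂, h₂⟩ := ih₂
    exact ⟨fun k => L₁ k ++ L₂ k, Good.mono (fun k x hx => List.mem_append_left _ hx) _ h₁,
      Good.mono (fun k x hx => List.mem_append_right _ hx) _ h₂⟩
  | goto f => exact ⟨fun _ => [], trivial⟩
  | halt => exact ⟨fun _ => [], trivial⟩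

theorem exists_good [Finite σ] [Finite Λ] (m : Λ → TM2.Stmt Γ Λ σ) (k₀ : K) [Finite (Γ k₀)] :
    ∃ L : ∀ k, List (Γ k), (∀ l, Good L (m l)) ∧ ∀ x : Γ k₀, x ∈ L k₀ := by
  classical
  have := Fintype.ofFinite Λ
  have := Fintype.ofFinite (Γ k₀)
  choose F hF using fun l => exists_good_stmt (m l)
  let L₀ : ∀ k, List (Γ k) := fun k => Finset.univ.toList.flatMap fun l => F l k
  have h₀ : ∀ l, Good L₀ (m l) := fun l => Good.mono (fun k x hx =>
    List.mem_flatMap.2 ⟨l, Finset.mem_toList.2 (Finset.mem_univ l), hx⟩) _ (hF l)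
  refine ⟨fun k' => if h : k' = k₀ then h ▸ (Finset.univ.toList) ++ L₀ k' else L₀ k',
    fun l => Good.mono (fun k' x hx => ?_) _ (h₀ l), fun x => ?_⟩
  · by_cases h : k' = k₀
    · subst h
      simp only [dite_true]
      exact List.mem_append_right _ hx
    · simp only [h, dite_false]
      exact hx
  · simp only [dite_true]
    exact List.mem_append_left _ (Finset.mem_toList.2 (Finset.mem_univ x))

end TM2Block

open TM2Block in
/-- **Package W7a**: the block of a machine `A`. -/
theorem exists_block (A : FinTM2) (yes : A.Γ A.k₁) (kn : A.K → ℕ) (hkn : Injective kn) :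
    ∃ (blk : ℕ → ℕ → FTable) (len K₀ : ℕ) (num : ∀ k, A.Γ k → ℕ),
      (∀ o e, (blk o e).length = len) ∧
      ∀ (t : FTable) (o e : ℕ), t.Has o (blk o e) →
        ∀ (u : List (A.Γ A.k₀)) (S : ℕ → List ℕ),
          S (kn A.k₀) = u.map (num A.k₀) → (∀ k, k ≠ A.k₀ → S (kn k) = []) →
          ∀ s cfg, stepsFrom A (initList A u) s = some cfg → cfg.l = none →
            ∃ m ≤ K₀ * (s + 1), ∃ S', t.step^[m] (o, S) = (e, S') ∧
              (∀ k, S' (kn k) = (cfg.stk k).map (num k)) ∧
              (∀ j, (∀ k, kn k ≠ j) → S' j = S j) ∧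
              ((cfg.stk A.k₁).head? = some yes ↔ rcode (S' (kn A.k₁)) = num A.k₁ yes + 1) := by
  classical
  have := A.ΛFin
  have := A.σFin
  have := A.kFin
  have := A.Γk₀Fin
  obtain ⟨L, hL, hL₀⟩ := exists_good A.m A.k₀
  have hM : ∀ k, (L k).length + 1 ≤ (∑ k, (L k).length) + 1 := fun k =>
    Nat.succ_le_succ (Finset.single_le_sum (f := fun k => (L k).length)
      (fun _ _ => Nat.zero_le _) (Finset.mem_univ k))
  let ls : List A.Λ := Finset.univ.toList
  let P : ℕ → ℕ → Par A.K A.Γ A.Λ A.σ := fun o e =>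
    { ns := Fintype.card A.σ
      es := Fintype.equivFin A.σ
      kn := kn
      k₀ := A.k₀
      L := L
      M := (∑ k, (L k).length) + 1
      hM := hM
      st := lst (Fintype.card A.σ) A.m ls (o + 1)
      e := e }
  let D : ℕ := ∑ l, depth (A.m l)
  refine ⟨fun o e => (P o e).row A.k₀ (fun _ => (0, 0, 0,
      (P o e).state (some A.main) A.initialState)) :: lcode (P o e) A.m ls (o + 1),
    (ls.map fun l => size (Fintype.card A.σ) (A.m l)).sum + 1, D + 1, (P 0 0).num, ?_, ?_⟩
  · intro o e
    simp [length_lcode, P]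
  · intro t o e ht u S hS₀ hS s cfg hs hl
    have hhas : ∀ l, t.Has ((P o e).st l) ((P o e).code (A.m l) ((P o e).st l)) := fun l =>
      has_lst (P o e) A.m t ls (o + 1) ht.tail l (Finset.mem_toList.2 (Finset.mem_univ l))
    have hnum : (P 0 0).num = (P o e).num := rfl
    have hrep0 : (P o e).Rep S (initList A u).stk S := by
      refine ⟨fun k => ?_, fun k x hx => ?_, fun _ _ => rfl⟩
      · rcases eq_or_ne k A.k₀ with rfl | hk
        · change S (kn A.k₀) = _
          rw [hS₀]
          simp only [initList, dite_true]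
          rfl
        · change S (kn k) = _
          rw [hS k hk]
          simp [initList, hk]
      · rcases eq_or_ne k A.k₀ with rfl | hk
        · exact hL₀ x
        · simp [initList, hk] at hx
    have hfirst : t.step (o, S) = ((P o e).state (some A.main) A.initialState, S) := by
      rw [t.step_row ht.head]
      have h3 : rcode (S ((P o e).kn A.k₀)) < (P o e).M := hrep0.rcode_lt A.k₀
      simp only [Par.row]
      rw [List.getD_eq_getElem _ _ (by simpa using h3)]
      simp
    have main : ∀ s cfg, stepsFrom A (initList A u) s = some cfg → ∃ m ≤ D * s, ∃ S',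
        t.step^[m] ((P o e).state (some A.main) A.initialState, S) =
          ((P o e).state cfg.l cfg.var, S') ∧ (P o e).Rep S cfg.stk S' := by
      intro s
      induction s with
      | zero =>
        intro cfg h
        simp only [stepsFrom, Option.some.injEq] at h
        subst h
        exact ⟨0, Nat.zero_le _, S, rfl, hrep0⟩
      | succ s ih =>
        intro cfg h
        simp only [stepsFrom, Option.bind_eq_some_iff] at h
        obtain ⟨c, hc, hstep⟩ := h
        obtain ⟨m, hm, S', h1, h2⟩ := ih c hc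
        obtain ⟨l, v, stk⟩ := c
        rcases l with _ | l
        · simp [TM2.step] at hstep
        · have hstep' : TM2.stepAux (A.m l) v stk = cfg := Option.some.inj hstep
          subst hstep'
          obtain ⟨m', hm', S'', h3, h4⟩ := (P o e).sim_stmt hkn (A.m l) (hL l) _ (hhas l) v stk
            S S' h2
          have hd : depth (A.m l) ≤ D := Finset.single_le_sum (f := fun l => depth (A.m l))
            (fun _ _ => Nat.zero_le _) (Finset.mem_univ l)
          refine ⟨m + m', ?_, S'', FTable.steps_trans h1 h3, h4⟩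
          calc m + m' ≤ D * s + D := Nat.add_le_add hm (hm'.trans hd)
            _ = D * (s + 1) := by ring
    obtain ⟨m, hm, S', h1, h2⟩ := main s cfg hs
    rw [hl] at h1
    refine ⟨1 + m, ?_, S', FTable.steps_trans (m := 1) hfirst h1, h2.eq, h2.off, ?_⟩
    · calc 1 + m ≤ 1 + D * s := Nat.add_le_add_left hm 1
        _ ≤ (D + 1) * (s + 1) := by nlinarith
    · have h3 := h2.eq A.k₁
      change S' (kn A.k₁) = _ at h3
      rw [h3, hnum]
      rcases hk : cfg.stk A.k₁ with _ | ⟨x, l⟩
      · simp [rcode]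
      · have hx : x ∈ L A.k₁ := h2.mem A.k₁ x (by rw [hk]; exact List.mem_cons_self)
        simp only [List.head?_cons, Option.some.injEq, List.map_cons, rcode, add_left_inj]
        exact ⟨fun h => by rw [h], fun h => (P o e).num_inj hx h⟩

end Vale.Agent.P310
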